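import Vale.Agent.P141.Num1

namespace Vale.Agent.Results.P141.A_unbdd

open MeasureTheory Vale.Agent.P141
open scoped ENNReal NNReal

theorem fin_of {a b c s : ℝ≥0∞} (hb : 1 < b) (hc : 1 < c) (hs : s ≤ 473 / 1000)
    (h : s⁻¹ = a⁻¹ + b⁻¹ + c⁻¹) : a ≠ ∞ := by
  rintro rfl
  have b1 : b⁻¹ ≤ 1 := ENNReal.inv_le_one.2 hb.le
  have c1 : c⁻¹ ≤ 1 := ENNReal.inv_le_one.2 hc.le
  have s1 : s⁻¹ ≤ 2 := by
    rw [h, ENNReal.inv_top, zero_add, ← one_add_one_eq_two]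
    exact add_le_add b1 c1
  have s2 : (2 : ℝ≥0∞)⁻¹ ≤ 473 / 1000 := (ENNReal.inv_le_iff_inv_le.1 s1).trans hs
  have s3 := ENNReal.toReal_mono (ENNReal.div_ne_top (by norm_num) (by norm_num)) s2
  norm_num [ENNReal.toReal_div] at s3

theorem result (p₁ p₂ p₃ r : ℝ≥0∞) (h1 : 1 < p₁) (h2 : 1 < p₂) (h3 : 1 < p₃) (hr : 0 < r)
    (hH : r⁻¹ = p₁⁻¹ + p₂⁻¹ + p₃⁻¹) (hs : r ≤ 473 / 1000) :
    ¬∃ C : ℝ≥0, ∀ f₁ f₂ f₃ : SchwartzMap ℝ ℂ,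
      eLpNorm (THT f₁ f₂ f₃) r volume ≤
        C * eLpNorm f₁ p₁ volume * eLpNorm f₂ p₂ volume * eLpNorm f₃ p₃ volume := by
  have f1 : p₁ ≠ ∞ := fin_of h2 h3 hs hH
  have f2 : p₂ ≠ ∞ := fin_of h1 h3 hs (by rw [hH, add_comm p₁⁻¹])
  have f3 : p₃ ≠ ∞ := fin_of h1 h2 hs (by rw [hH, add_comm, add_assoc])
  have t : (473 / 1000 : ℝ≥0∞) ≠ ∞ := ENNReal.div_ne_top (by norm_num) (by norm_num)
  have f4 : r ≠ ∞ := ne_top_of_le_ne_top t hs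
  have z1 : p₁ ≠ 0 := (zero_lt_one.trans h1).ne'
  have z2 : p₂ ≠ 0 := (zero_lt_one.trans h2).ne'
  have z3 : p₃ ≠ 0 := (zero_lt_one.trans h3).ne'
  have key := c1bdd (ENNReal.toReal_pos z1 f1) (ENNReal.toReal_pos z2 f2)
    (ENNReal.toReal_pos z3 f3) (ENNReal.toReal_pos hr.ne' f4)
    (by
      have := congrArg ENNReal.toReal hH
      rw [ENNReal.toReal_add (ENNReal.add_ne_top.2 ⟨ENNReal.inv_ne_top.2 z1,
        ENNReal.inv_ne_top.2 z2⟩) (ENNReal.inv_ne_top.2 z3), ENNReal.toReal_add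
        (ENNReal.inv_ne_top.2 z1) (ENNReal.inv_ne_top.2 z2)] at this
      simpa only [ENNReal.toReal_inv, one_div] using this)
    (by
      have := ENNReal.toReal_mono t hs
      simpa [ENNReal.toReal_div] using this)
  simpa only [BoundedAt, ENNReal.ofReal_toReal f1, ENNReal.ofReal_toReal f2,
    ENNReal.ofReal_toReal f3, ENNReal.ofReal_toReal f4] using key

end Vale.Agent.Results.P141.A_unbdd
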